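import Crest.Agent.SFold.Lift

/-!
Row 323 (S0500), Part I: the iteration lemma (helper15).
-/

set_option autoImplicit false
set_option linter.all false

namespace Crest.Agent.SFD

open SFold Finset

variable {β : Type}

/-- digits of all variables -/
def xx (p : ℕ) (x : Bool ⊕ β → ℕ → ℕ) : Fin 4 ⊕ β → ℕ → ℕ := fun v i =>
  Sum.elim ![p, i, x (Sum.inl false) i, x (Sum.inl true) i] (fun b => x (Sum.inr b) i) v

/-- digit strings of all variables -/
def XX (p n Bb : ℕ) (str : Bool ⊕ β → ℕ) : Fin 4 ⊕ β → ℕ :=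
  Sum.elim ![p * repF Bb n 1, idF Bb n, str (Sum.inl false), str (Sum.inl true)]
    (fun b => str (Sum.inr b))

theorem XX_eq (p n Bb : ℕ) (hB : 2 ≤ Bb) (x : Bool ⊕ β → ℕ → ℕ) :
    XX p n Bb (fun k => ds Bb n (x k)) = fun v => ds Bb n (xx p x v) := by
  funext v
  rcases v with v | v
  · fin_cases v
    · show p * repF Bb n 1 = ds Bb n (fun i => p)
      rw [repF_eq _ _ _ hB (Or.inl le_rfl), ds_const]
    · show idF Bb n = ds Bb n (fun i => i)
      rw [idF_eq _ _ hB]
    · rfl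
    · rfl
  · rfl

/-- the body of the iteration lemma -/
def Phi [Fintype β] (E : List (Eqn (Fin 4 ⊕ β))) (G p n s t U : ℕ) (str : Bool ⊕ β → ℕ) : Prop :=
  n + p + s + t < U ∧
  (∀ k, str k &&& (2 ^ U - 1) * repF (2 ^ (G * U)) n 1 = str k) ∧
  s + 2 ^ (G * U) * str (Sum.inl true) = str (Sum.inl false) + (2 ^ (G * U)) ^ n * t ∧
  (∀ e ∈ E, e.Lift (2 ^ (G * U)) n (XX p n (2 ^ (G * U)) str)) ∧
  (1 + n + p + s + t + ∑ k, str k) % (2 ^ (G * U) - 1) = U

theorem big (c U G : ℕ) (hU : 1 ≤ U) (hG : c + 6 ≤ G) (σ : ℕ) (hσ : σ ≤ c * (2 ^ U * 2 ^ U)) :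
    1 + U + σ < 2 ^ (G * U) - 1 := by
  have h1 : U < 2 ^ U := Nat.lt_two_pow_self
  have h2 : 2 ≤ 2 ^ U := by
    calc 2 = 2 ^ 1 := rfl
      _ ≤ 2 ^ U := Nat.pow_le_pow_right (by norm_num) hU
  have h3 : 2 ^ U * 2 ≤ 2 ^ U * 2 ^ U := Nat.mul_le_mul_left _ h2
  have h4 : 2 ^ (G * U) ≥ 2 ^ (2 * U + (c + 4)) := by
    apply Nat.pow_le_pow_right (by norm_num)
    have : (c + 6) * U ≤ G * U := Nat.mul_le_mul_right _ hG
    have h5 : (c + 4) * 1 ≤ (c + 4) * U := Nat.mul_le_mul_left _ hU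
    have h6 : (c + 6) * U = 2 * U + (c + 4) * U := by ring
    omega
  have h5 : 2 ^ (2 * U + (c + 4)) = (2 ^ U * 2 ^ U) * 2 ^ (c + 4) := by
    rw [pow_add, two_mul, pow_add]
  have h6 : c + 4 < 2 ^ (c + 4) := Nat.lt_two_pow_self
  have h7 : (2 ^ U * 2 ^ U) * (c + 4) ≤ (2 ^ U * 2 ^ U) * 2 ^ (c + 4) :=
    Nat.mul_le_mul_left _ h6.le
  have h8 : (2 ^ U * 2 ^ U) * (c + 4) = c * (2 ^ U * 2 ^ U) + 4 * (2 ^ U * 2 ^ U) := by ring
  omega

theorem phi_sound [Fintype β] (E : List (Eqn (Fin 4 ⊕ β))) (G p n s t U : ℕ)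
    (hG : Fintype.card (Bool ⊕ β) + 6 ≤ G) (str : Bool ⊕ β → ℕ)
    (h : Phi E G p n s t U str) :
    ∃ x : Bool ⊕ β → ℕ → ℕ, (∀ k, str k = ds (2 ^ (G * U)) n (x k)) ∧
      (∃ q : ℕ → ℕ, q 0 = s ∧ q n = t ∧ (∀ i < n, x (Sum.inl false) i = q i) ∧
        (∀ i < n, x (Sum.inl true) i = q (i + 1))) ∧
      (∀ i < n, Sat E (fun v => xx p x v i)) ∧
      U = 1 + n + p + s + t + ∑ k, ∑ i ∈ range n, x k i := by
  classical
  obtain ⟨h1, h2, h3, h4, h5⟩ := h
  have hU : 1 ≤ U := by omega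
  have hGU : 2 * U + 1 ≤ G * U := by
    have h6 : 6 * U ≤ G * U := Nat.mul_le_mul_right _ (by omega)
    omega
  set b := G * U with hb
  have hB2 : 2 ≤ 2 ^ b := by
    calc 2 = 2 ^ 1 := rfl
      _ ≤ 2 ^ b := Nat.pow_le_pow_right (by norm_num) (by omega)
  have hUb : 2 ^ U * 2 ≤ 2 ^ b := by
    rw [← pow_succ]
    exact Nat.pow_le_pow_right (by norm_num) (by omega)
  have hUU : U < 2 ^ U := Nat.lt_two_pow_self
  have h2' : ∀ k, ∃ x : ℕ → ℕ, (∀ i < n, x i < 2 ^ U) ∧ str k = ds (2 ^ b) n x := by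
    intro k
    apply (mask_iff b U n (str k) (by omega)).1
    have := h2 k
    rwa [repF_eq _ _ _ hB2 (Or.inl le_rfl)] at this
  choose x hx hxs using h2'
  have hstr : str = fun k => ds (2 ^ b) n (x k) := funext hxs
  refine ⟨x, hxs, ⟨fun i => if i < n then x (Sum.inl false) i else t, ?_⟩, ?_, ?_⟩
  · have h6 : ds (2 ^ b) (n + 1) (fun i => if i = 0 then s else x (Sum.inl true) (i - 1)) =
        ds (2 ^ b) (n + 1) (fun i => if i < n then x (Sum.inl false) i else t) := by
      rw [ds_succ', ds_succ]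
      simp only [if_true, Nat.add_eq_zero_iff, one_ne_zero, and_false, if_false,
        Nat.add_sub_cancel, lt_irrefl]
      have e1 : ds (2 ^ b) n (fun i => x (Sum.inl true) i) = str (Sum.inl true) :=
        (hxs _).symm
      have e2 : ds (2 ^ b) n (fun i => if i < n then x (Sum.inl false) i else t) =
          str (Sum.inl false) := by
        rw [hxs]
        unfold ds
        apply sum_congr rfl
        intro i hi
        beta_reduce
        rw [if_pos (mem_range.1 hi)]
      rw [e1, e2, h3]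
      ring
    have h7 := (ds_inj (2 ^ b) (n + 1) _ _ (by
      intro i hi
      beta_reduce
      split_ifs with h8
      · omega
      · have := hx (Sum.inl true) (i - 1) (by omega)
        omega) (by
      intro i hi
      beta_reduce
      split_ifs with h8
      · have := hx (Sum.inl false) i h8
        omega
      · omega)).1 h6
    refine ⟨?_, ?_, ?_, ?_⟩
    · have := h7 0 (by omega)
      simpa using this.symm
    · simp
    · intro i hi
      simp [hi]
    · intro i hi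
      have := h7 (i + 1) (by omega)
      simpa using this
  · intro i hi e he
    have h6 := h4 e he
    rw [hstr, XX_eq p n _ hB2] at h6
    refine (Eqn.lift_iff b U n hU (by omega) (xx p x) ?_ e).1 h6 i hi
    intro v j hj
    rcases v with v | v
    · fin_cases v
      · show p < 2 ^ U
        omega
      · show j < 2 ^ U
        omega
      · exact hx _ j hj
      · exact hx _ j hj
    · exact hx _ j hj
  · have hσ : ∑ k, ∑ i ∈ range n, x k i ≤ Fintype.card (Bool ⊕ β) * (2 ^ U * 2 ^ U) := by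
      calc ∑ k, ∑ i ∈ range n, x k i ≤ ∑ k : Bool ⊕ β, 2 ^ U * 2 ^ U := by
            apply sum_le_sum
            intro k _
            calc ∑ i ∈ range n, x k i ≤ ∑ i ∈ range n, 2 ^ U :=
                  sum_le_sum (fun i hi => (hx k i (mem_range.1 hi)).le)
              _ = n * 2 ^ U := by simp
              _ ≤ 2 ^ U * 2 ^ U := Nat.mul_le_mul_right _ (by omega)
        _ = Fintype.card (Bool ⊕ β) * (2 ^ U * 2 ^ U) := by simp
    have hbig := big (Fintype.card (Bool ⊕ β)) U G hU hG _ hσ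
    rw [← hb] at hbig
    have hmod : (1 + n + p + s + t + ∑ k, str k) ≡
        1 + n + p + s + t + ∑ k, ∑ i ∈ range n, x k i [MOD (2 ^ b - 1)] := by
      apply Nat.ModEq.add_left
      rw [hstr]
      have : ∀ S : Finset (Bool ⊕ β), ∑ k ∈ S, ds (2 ^ b) n (x k) ≡
          ∑ k ∈ S, ∑ i ∈ range n, x k i [MOD (2 ^ b - 1)] := by
        intro S
        induction S using Finset.induction_on with
        | empty => simp [Nat.ModEq]
        | insert k S hk ih =>
          rw [sum_insert hk, sum_insert hk]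
          exact (ds_modEq _ _ hB2 _).add ih
      exact this univ
    unfold Nat.ModEq at hmod
    rw [h5, Nat.mod_eq_of_lt (by omega)] at hmod
    exact hmod

theorem phi_complete [Fintype β] (E : List (Eqn (Fin 4 ⊕ β))) (G p n s t : ℕ)
    (hG : Fintype.card (Bool ⊕ β) + 6 ≤ G) (q : ℕ → ℕ) (w : ℕ → β → ℕ)
    (h0 : q 0 = s) (hn : q n = t)
    (hE : ∀ i < n, Sat E (Sum.elim ![p, i, q i, q (i + 1)] (w i))) :
    ∃ (U : ℕ) (str : Bool ⊕ β → ℕ), Phi E G p n s t U str := by
  classical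
  let x : Bool ⊕ β → ℕ → ℕ := fun k i => Sum.elim (fun b => if b then q (i + 1) else q i) (w i) k
  let U := 1 + n + p + s + t + ∑ k, ∑ i ∈ range n, x k i
  have hU1 : 1 ≤ U := by
    show 1 ≤ 1 + n + p + s + t + _
    omega
  have hGU : 2 * U + 1 ≤ G * U := by
    have h6 : 6 * U ≤ G * U := Nat.mul_le_mul_right _ (by omega)
    omega
  set b := G * U with hb
  have hB2 : 2 ≤ 2 ^ b := by
    calc 2 = 2 ^ 1 := rfl
      _ ≤ 2 ^ b := Nat.pow_le_pow_right (by norm_num) (by omega)
  have hUb : 2 ^ U * 2 ≤ 2 ^ b := by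
    rw [← pow_succ]
    exact Nat.pow_le_pow_right (by norm_num) (by omega)
  have hUU : U < 2 ^ U := Nat.lt_two_pow_self
  have hUdef : U = 1 + n + p + s + t + ∑ k, ∑ i ∈ range n, x k i := rfl
  have hxU : ∀ k, ∀ i < n, x k i < U := by
    intro k i hi
    have h1 : x k i ≤ ∑ i ∈ range n, x k i :=
      single_le_sum (f := fun i => x k i) (fun _ _ => Nat.zero_le _) (mem_range.2 hi)
    have h2 : ∑ i ∈ range n, x k i ≤ ∑ k, ∑ i ∈ range n, x k i :=
      single_le_sum (f := fun k => ∑ i ∈ range n, x k i) (fun _ _ => Nat.zero_le _) (mem_univ k)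
    omega
  have hx : ∀ k, ∀ i < n, x k i < 2 ^ U := fun k i hi => lt_trans (hxU k i hi) hUU
  refine ⟨U, fun k => ds (2 ^ b) n (x k), by omega, ?_, ?_, ?_, ?_⟩
  · intro k
    rw [repF_eq _ _ _ hB2 (Or.inl le_rfl)]
    exact (mask_iff b U n _ (by omega)).2 ⟨x k, hx k, rfl⟩
  · have e1 := ds_succ' (2 ^ b) n q
    have e2 := ds_succ (2 ^ b) n q
    rw [h0] at e1
    rw [hn] at e2
    show s + 2 ^ b * ds (2 ^ b) n (fun i => q (i + 1)) = ds (2 ^ b) n q + (2 ^ b) ^ n * t
    rw [mul_comm _ t]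
    omega
  · intro e he
    rw [XX_eq p n _ hB2]
    refine (Eqn.lift_iff b U n hU1 (by omega) (xx p x) ?_ e).2 ?_
    · intro v j hj
      rcases v with v | v
      · fin_cases v
        · show p < 2 ^ U
          omega
        · show j < 2 ^ U
          omega
        · exact hx (Sum.inl false) j hj
        · exact hx (Sum.inl true) j hj
      · exact hx (Sum.inr v) j hj
    · intro i hi
      have h1 := hE i hi e he
      have h2 : (fun v => xx p x v i) = Sum.elim ![p, i, q i, q (i + 1)] (w i) := by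
        funext v
        rcases v with v | v
        · fin_cases v <;> rfl
        · rfl
      rw [h2]
      exact h1
  · have hσ : ∑ k, ∑ i ∈ range n, x k i ≤ Fintype.card (Bool ⊕ β) * (2 ^ U * 2 ^ U) := by
      calc ∑ k, ∑ i ∈ range n, x k i ≤ ∑ k : Bool ⊕ β, 2 ^ U * 2 ^ U := by
            apply sum_le_sum
            intro k _
            calc ∑ i ∈ range n, x k i ≤ ∑ i ∈ range n, 2 ^ U :=
                  sum_le_sum (fun i hi => (hx k i (mem_range.1 hi)).le)
              _ = n * 2 ^ U := by simp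
              _ ≤ 2 ^ U * 2 ^ U := Nat.mul_le_mul_right _ (by omega)
        _ = Fintype.card (Bool ⊕ β) * (2 ^ U * 2 ^ U) := by simp
    have hbig := big (Fintype.card (Bool ⊕ β)) U G hU1 hG _ hσ
    rw [← hb] at hbig
    have hmod : (1 + n + p + s + t + ∑ k, ds (2 ^ b) n (x k)) ≡
        1 + n + p + s + t + ∑ k, ∑ i ∈ range n, x k i [MOD (2 ^ b - 1)] := by
      apply Nat.ModEq.add_left
      have : ∀ S : Finset (Bool ⊕ β), ∑ k ∈ S, ds (2 ^ b) n (x k) ≡
          ∑ k ∈ S, ∑ i ∈ range n, x k i [MOD (2 ^ b - 1)] := by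
        intro S
        induction S using Finset.induction_on with
        | empty => simp [Nat.ModEq]
        | insert k S hk ih =>
          rw [sum_insert hk, sum_insert hk]
          exact (ds_modEq _ _ hB2 _).add ih
      exact this univ
    unfold Nat.ModEq at hmod
    rw [hmod, ← hUdef]
    exact Nat.mod_eq_of_lt (by omega)

/-- `Phi` is single-fold -/
theorem phi_SF [Fintype β] (hexp : HExp) (E : List (Eqn (Fin 4 ⊕ β))) (G : ℕ) :
    SF {v : Fin 4 ⊕ Option (Bool ⊕ β) → ℕ | Phi E G (v (Sum.inl 0)) (v (Sum.inl 1))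
      (v (Sum.inl 2)) (v (Sum.inl 3)) (v (Sum.inr none)) (fun k => v (Sum.inr (some k)))} := by
  have hv : ∀ d : Fin 4 ⊕ Option (Bool ⊕ β), SFF (fun v : Fin 4 ⊕ Option (Bool ⊕ β) → ℕ => v d) :=
    fun d => SFF.var d
  have hp := hv (Sum.inl 0)
  have hn := hv (Sum.inl 1)
  have hs := hv (Sum.inl 2)
  have ht := hv (Sum.inl 3)
  have hU := hv (Sum.inr none)
  have hk : ∀ k, SFF (fun v : Fin 4 ⊕ Option (Bool ⊕ β) → ℕ => v (Sum.inr (some k))) :=
    fun k => hv _
  have h1 : SFF (fun _ : Fin 4 ⊕ Option (Bool ⊕ β) → ℕ => 1) := SFF.const 1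
  have h2 : SFF (fun _ : Fin 4 ⊕ Option (Bool ⊕ β) → ℕ => 2) := SFF.const 2
  have hB : SFF (fun v : Fin 4 ⊕ Option (Bool ⊕ β) → ℕ => 2 ^ (G * v (Sum.inr none))) :=
    h2.tpow hexp ((SFF.const G).mul hU)
  have hX : ∀ x : Fin 4 ⊕ β, SFF (fun v : Fin 4 ⊕ Option (Bool ⊕ β) → ℕ =>
      XX (v (Sum.inl 0)) (v (Sum.inl 1)) (2 ^ (G * v (Sum.inr none)))
        (fun k => v (Sum.inr (some k))) x) := by
    intro x
    rcases x with x | x
    · fin_cases x
      · exact hp.mul (SFF.repF hexp hB hn h1)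
      · exact SFF.idF hexp hB hn
      · exact hk _
      · exact hk _
    · exact hk _
  refine (SF.lt (((hn.add hp).add hs).add ht) hU).and ?_
  refine SF.and (R := {v | ∀ k, _}) ?_ ?_
  · exact SF.all (fun k => SF.eq (SFF.land hexp (hk k)
      (((h2.tpow hexp hU).tsub h1).mul (SFF.repF hexp hB hn h1))) (hk k))
  refine (SF.eq (hs.add (hB.mul (hk _))) ((hk _).add ((hB.tpow hexp hn).mul ht))).and ?_
  refine SF.and (R := {v | ∀ e ∈ E, _}) ?_ ?_
  · have : SF {v : Fin 4 ⊕ Option (Bool ⊕ β) → ℕ | ∀ i : Fin E.length,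
        (E.get i).Lift (2 ^ (G * v (Sum.inr none))) (v (Sum.inl 1))
          (fun x => XX (v (Sum.inl 0)) (v (Sum.inl 1)) (2 ^ (G * v (Sum.inr none)))
            (fun k => v (Sum.inr (some k))) x)} :=
      SF.all (fun i => SF.lift hexp (E.get i) hB hn hX)
    refine this.congr fun v => ?_
    constructor
    · intro h i
      exact h _ (List.get_mem _ _)
    · intro h e he
      obtain ⟨i, rfl⟩ := List.get_of_mem he
      exact h i
  · exact SF.eq (((((((h1.add hn).add hp).add hs).add ht).add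
      (SFF.sum univ (fun k _ => hk k)))).tmod (hB.tsub h1)) hU

/-- THE ITERATION LEMMA -/
theorem SF.iter (hexp : HExp) {R : ℕ → ℕ → ℕ → ℕ → Prop}
    (hR : SF {v : Fin 4 → ℕ | R (v 0) (v 1) (v 2) (v 3)})
    (hf : ∀ p i s t t', R p i s t → R p i s t' → t = t') :
    SF {v : Fin 4 → ℕ | ∃ q : ℕ → ℕ, q 0 = v 2 ∧ q (v 1) = v 3 ∧
      ∀ i < v 1, R (v 0) i (q i) (q (i + 1))} := by
  obtain ⟨β, hβ, E, hE⟩ := hR
  have := Fintype.ofFinite β
  have hER : ∀ p i s t, R p i s t ↔ ∃ w : β → ℕ, Sat E (Sum.elim ![p, i, s, t] w) :=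
    fun p i s t => (hE ![p, i, s, t]).1
  have hEu : ∀ p i s t (w w' : β → ℕ), Sat E (Sum.elim ![p, i, s, t] w) →
      Sat E (Sum.elim ![p, i, s, t] w') → w = w' :=
    fun p i s t => (hE ![p, i, s, t]).2
  set G := Fintype.card (Bool ⊕ β) + 6 with hG
  refine (SF.exC (phi_SF hexp E G) ?_).congr ?_
  · intro a c c' h h'
    obtain ⟨x, hx, ⟨q, hq0, hqn, hqS, hqT⟩, hs, hU⟩ := phi_sound E G _ _ _ _ _ hG.ge _ h
    obtain ⟨x', hx', ⟨q', hq0', hqn', hqS', hqT'⟩, hs', hU'⟩ :=
      phi_sound E G _ _ _ _ _ hG.ge _ h'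
    simp only [Sum.elim_inl, Sum.elim_inr] at *
    have conv : ∀ (y : Bool ⊕ β → ℕ → ℕ) i, (fun v => xx (a 0) y v i) =
        Sum.elim ![a 0, i, y (Sum.inl false) i, y (Sum.inl true) i]
          (fun b => y (Sum.inr b) i) := by
      intro y i
      rfl
    have hRq : ∀ i < a 1, R (a 0) i (q i) (q (i + 1)) := by
      intro i hi
      have := hs i hi
      rw [conv, hqS i hi, hqT i hi] at this
      exact (hER _ _ _ _).2 ⟨_, this⟩
    have hRq' : ∀ i < a 1, R (a 0) i (q' i) (q' (i + 1)) := by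
      intro i hi
      have := hs' i hi
      rw [conv, hqS' i hi, hqT' i hi] at this
      exact (hER _ _ _ _).2 ⟨_, this⟩
    have hqq : ∀ i ≤ a 1, q i = q' i := by
      intro i
      induction i with
      | zero => intro _; rw [hq0, hq0']
      | succ i ih =>
        intro hi
        have h1 := hRq i (by omega)
        have h2 := hRq' i (by omega)
        rw [ih (by omega)] at h1
        exact hf _ _ _ _ _ h1 h2
    have hxx : ∀ k, ∀ i < a 1, x k i = x' k i := by
      intro k i hi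
      rcases k with (_ | _) | k
      · rw [hqS i hi, hqS' i hi, hqq i hi.le]
      · rw [hqT i hi, hqT' i hi, hqq (i + 1) (by omega)]
      · have h1 := hs i hi
        have h2 := hs' i hi
        rw [conv, hqS i hi, hqT i hi] at h1
        rw [conv, hqS' i hi, hqT' i hi, ← hqq i hi.le, ← hqq (i + 1) (by omega)] at h2
        exact congrFun (hEu _ _ _ _ _ _ h1 h2) k
    have hsum : ∑ k, ∑ i ∈ range (a 1), x k i = ∑ k, ∑ i ∈ range (a 1), x' k i := by
      apply sum_congr rfl
      intro k _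
      apply sum_congr rfl
      intro i hi
      exact hxx k i (mem_range.1 hi)
    have hUU : c none = c' none := by rw [hU, hU', hsum]
    funext o
    rcases o with _ | k
    · exact hUU
    · have e1 := hx k
      have e2 := hx' k
      rw [e1, e2, hUU]
      unfold ds
      apply sum_congr rfl
      intro i hi
      rw [hxx k i (mem_range.1 hi)]
  · intro a
    constructor
    · rintro ⟨q, h0, hn, hRq⟩
      have h1 : ∀ i, ∃ w : β → ℕ, i < a 1 → Sat E (Sum.elim ![a 0, i, q i, q (i + 1)] w) := by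
        intro i
        by_cases hi : i < a 1
        · obtain ⟨w, hw⟩ := (hER _ _ _ _).1 (hRq i hi)
          exact ⟨w, fun _ => hw⟩
        · exact ⟨fun _ => 0, fun h => (hi h).elim⟩
      choose w hw using h1
      obtain ⟨U, str, hΦ⟩ := phi_complete E G (a 0) (a 1) (a 2) (a 3) hG.ge q w h0 hn
        (fun i hi => hw i hi)
      exact ⟨fun o => o.elim U str, hΦ⟩
    · rintro ⟨c, hc⟩
      obtain ⟨x, hx, ⟨q, hq0, hqn, hqS, hqT⟩, hs, hU⟩ := phi_sound E G _ _ _ _ _ hG.ge _ hc
      refine ⟨q, hq0, hqn, ?_⟩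
      intro i hi
      have := hs i hi
      have conv : (fun v => xx (a 0) x v i) =
          Sum.elim ![a 0, i, x (Sum.inl false) i, x (Sum.inl true) i]
            (fun b => x (Sum.inr b) i) := rfl
      simp only [Sum.elim_inl] at *
      rw [conv, hqS i hi, hqT i hi] at this
      exact (hER _ _ _ _).2 ⟨_, this⟩

end Crest.Agent.SFD
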