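import Crest.Agent.SFold.DigAnd

/-!
Row 323 (S0500), Part I: binomial coefficients, parity and bitwise AND.
-/

set_option autoImplicit false

namespace SFold

open Finset

theorem land_eq_zero_iff_half (a b : ℕ) :
    a &&& b = 0 ↔ ¬ (a % 2 = 1 ∧ b % 2 = 1) ∧ (a / 2 &&& b / 2) = 0 := by
  have ha : a = a % 2 + 2 ^ 1 * (a / 2) := by omega
  have hb : b = b % 2 + 2 ^ 1 * (b / 2) := by omega
  have ha2 : a % 2 < 2 ^ 1 := by omega
  have hb2 : b % 2 < 2 ^ 1 := by omega
  conv_lhs => rw [ha, hb, land_add_mul 1 _ _ _ _ ha2 hb2]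
  have h1 : (a % 2 = 0 ∨ a % 2 = 1) := by omega
  have h2 : (b % 2 = 0 ∨ b % 2 = 1) := by omega
  rcases h1 with h1 | h1 <;> rcases h2 with h2 | h2 <;> simp [h1, h2]

/-- `C(a+b, a)` is odd iff `a` and `b` have disjoint binary supports. -/
theorem odd_choose_iff (a b : ℕ) : (a + b).choose a % 2 = 1 ↔ a &&& b = 0 := by
  have : Fact (Nat.Prime 2) := ⟨Nat.prime_two⟩
  induction a using Nat.strong_induction_on generalizing b with
  | _ a ih =>
    rcases Nat.eq_zero_or_pos a with h0 | h0
    · subst h0
      simp
    · have hL := @Choose.choose_modEq_choose_mod_mul_choose_div_nat (a + b) a 2 _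
      have hI : (a / 2 + b / 2).choose (a / 2) % 2 = 1 ↔ (a / 2 &&& b / 2) = 0 :=
        ih (a / 2) (by omega) (b / 2)
      rw [land_eq_zero_iff_half a b, ← hI]
      have h1 : (a % 2 = 0 ∨ a % 2 = 1) := by omega
      have h2 : (b % 2 = 0 ∨ b % 2 = 1) := by omega
      unfold Nat.ModEq at hL
      rw [hL]
      rcases h1 with h1 | h1 <;> rcases h2 with h2 | h2
      · have e1 : (a + b) % 2 = 0 := by omega
        have e2 : (a + b) / 2 = a / 2 + b / 2 := by omega
        rw [e1, e2, h1, h2]
        simp
      · have e1 : (a + b) % 2 = 1 := by omega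
        have e2 : (a + b) / 2 = a / 2 + b / 2 := by omega
        rw [e1, e2, h1, h2]
        simp
      · have e1 : (a + b) % 2 = 1 := by omega
        have e2 : (a + b) / 2 = a / 2 + b / 2 := by omega
        rw [e1, e2, h1, h2]
        simp
      · have e1 : (a + b) % 2 = 0 := by omega
        rw [e1, h1, h2]
        simp

theorem add_eq_lor (x y : ℕ) (h : x &&& y = 0) : x + y = x ||| y := by
  induction x using Nat.strong_induction_on generalizing y with
  | _ x ih =>
    rcases Nat.eq_zero_or_pos x with h0 | h0
    · subst h0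
      simp
    · have h' := (land_eq_zero_iff_half x y).1 h
      have hI : x / 2 + y / 2 = x / 2 ||| y / 2 := ih (x / 2) (by omega) (y / 2) h'.2
      have h3 : (x ||| y) / 2 = x / 2 ||| y / 2 := Nat.or_div_two
      have h4 : (x ||| y) % 2 = (x % 2 ||| y % 2) := by
        have := Nat.or_mod_two_pow (a := x) (b := y) (n := 1)
        simpa using this
      have h5 : (x % 2 ||| y % 2) = x % 2 + y % 2 := by
        have h1 : (x % 2 = 0 ∨ x % 2 = 1) := by omega
        have h2 : (y % 2 = 0 ∨ y % 2 = 1) := by omega
        rcases h1 with h1 | h1 <;> rcases h2 with h2 | h2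
        · simp [h1, h2]
        · simp [h1, h2]
        · simp [h1, h2]
        · exact (h'.1 ⟨h1, h2⟩).elim
      omega

/-- characterisation of `c = a &&& b` by three disjointness conditions. -/
theorem land_iff (a b c : ℕ) : c = a &&& b ↔
    c ≤ a ∧ c ≤ b ∧ c &&& (a - c) = 0 ∧ c &&& (b - c) = 0 ∧ (a - c) &&& (b - c) = 0 := by
  have hadd := add_eq_lor
  constructor
  · intro h
    have hca : c ≤ a := h ▸ Nat.and_le_left
    have hcb : c ≤ b := h ▸ Nat.and_le_right
    have ea : a - c = a ^^^ c := by
      have h1 : c &&& (a ^^^ c) = 0 := by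
        apply Nat.eq_of_testBit_eq
        intro i
        rw [h]
        simp only [Nat.testBit_and, Nat.testBit_xor, Nat.zero_testBit]
        cases a.testBit i <;> cases b.testBit i <;> rfl
      have h2 := hadd _ _ h1
      have h3 : c ||| (a ^^^ c) = a := by
        apply Nat.eq_of_testBit_eq
        intro i
        rw [h]
        simp only [Nat.testBit_and, Nat.testBit_xor, Nat.testBit_or]
        cases a.testBit i <;> cases b.testBit i <;> rfl
      omega
    have eb : b - c = b ^^^ c := by
      have h1 : c &&& (b ^^^ c) = 0 := by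
        apply Nat.eq_of_testBit_eq
        intro i
        rw [h]
        simp only [Nat.testBit_and, Nat.testBit_xor, Nat.zero_testBit]
        cases a.testBit i <;> cases b.testBit i <;> rfl
      have h2 := hadd _ _ h1
      have h3 : c ||| (b ^^^ c) = b := by
        apply Nat.eq_of_testBit_eq
        intro i
        rw [h]
        simp only [Nat.testBit_and, Nat.testBit_xor, Nat.testBit_or]
        cases a.testBit i <;> cases b.testBit i <;> rfl
      omega
    refine ⟨hca, hcb, ?_, ?_, ?_⟩
    · rw [ea]
      apply Nat.eq_of_testBit_eq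
      intro i
      rw [h]
      simp only [Nat.testBit_and, Nat.testBit_xor, Nat.zero_testBit]
      cases a.testBit i <;> cases b.testBit i <;> rfl
    · rw [eb]
      apply Nat.eq_of_testBit_eq
      intro i
      rw [h]
      simp only [Nat.testBit_and, Nat.testBit_xor, Nat.zero_testBit]
      cases a.testBit i <;> cases b.testBit i <;> rfl
    · rw [ea, eb]
      apply Nat.eq_of_testBit_eq
      intro i
      rw [h]
      simp only [Nat.testBit_and, Nat.testBit_xor, Nat.zero_testBit]
      cases a.testBit i <;> cases b.testBit i <;> rfl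
  · rintro ⟨hca, hcb, h1, h2, h3⟩
    have ea : a = c ||| (a - c) := by
      rw [← hadd _ _ h1]
      omega
    have eb : b = c ||| (b - c) := by
      rw [← hadd _ _ h2]
      omega
    apply Nat.eq_of_testBit_eq
    intro i
    rw [Nat.testBit_and]
    conv_rhs => rw [ea, eb]
    rw [Nat.testBit_or, Nat.testBit_or]
    have h1' := congrArg (fun x => Nat.testBit x i) h1
    have h2' := congrArg (fun x => Nat.testBit x i) h2
    have h3' := congrArg (fun x => Nat.testBit x i) h3
    simp only [Nat.testBit_and, Nat.zero_testBit] at h1' h2' h3'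
    revert h1' h2' h3'
    cases c.testBit i <;> cases (a - c).testBit i <;> cases (b - c).testBit i <;> simp

/-- digit extraction. -/
theorem ds_digit (B N : ℕ) (c : ℕ → ℕ) (hc : ∀ e < N, c e < B) (k : ℕ) (hk : k < N) :
    ds B N c / B ^ k % B = c k := by
  induction N generalizing c k with
  | zero => omega
  | succ N ih =>
    have hB : 0 < B := lt_of_le_of_lt (Nat.zero_le _) (hc 0 (by omega))
    rw [ds_succ']
    rcases k with _ | k
    · simp [Nat.add_mul_mod_self_left, Nat.mod_eq_of_lt (hc 0 (by omega))]
    · have h1 : (c 0 + B * ds B N fun i => c (i + 1)) / B ^ (k + 1) =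
          (ds B N fun i => c (i + 1)) / B ^ k := by
        rw [pow_succ', ← Nat.div_div_eq_div_mul, Nat.add_mul_div_left _ _ hB,
          Nat.div_eq_of_lt (hc 0 (by omega)), zero_add]
      rw [h1]
      exact ih (fun i => c (i + 1)) (fun e he => hc (e + 1) (by omega)) k (by omega)

/-- binomial coefficients from exponentiation. -/
theorem choose_eq (n k : ℕ) :
    n.choose k = (2 ^ n + 2) ^ n / (2 ^ n + 1) ^ k % (2 ^ n + 1) := by
  have hu : (2 ^ n + 2) ^ n = ds (2 ^ n + 1) (n + 1) (fun m => n.choose m) := by
    have : (2 ^ n + 2 : ℕ) = (2 ^ n + 1) + 1 := by ring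
    rw [this, add_pow]
    unfold ds
    apply sum_congr rfl
    intro m _
    simp
    ring
  have hc : ∀ e < n + 1, n.choose e < 2 ^ n + 1 := by
    intro e _
    have := Nat.choose_le_two_pow n e
    omega
  rw [hu]
  by_cases hk : k < n + 1
  · exact (ds_digit _ _ _ hc k hk).symm
  · have h1 : ds (2 ^ n + 1) (n + 1) (fun m => n.choose m) < (2 ^ n + 1) ^ k :=
      lt_of_lt_of_le (ds_lt _ _ _ hc) (Nat.pow_le_pow_right (Nat.succ_pos _) (by omega))
    rw [Nat.div_eq_of_lt h1, Nat.choose_eq_zero_of_lt (by omega)]
    simp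

end SFold
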