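import Mathlib

/-!
Row 323 (S0500), Part I: digit strings (pure natural numbers).
`ds B n x = ∑_{i<n} x i * B^i`.
-/

set_option autoImplicit false

namespace SFold

open Finset

/-- digit string `∑_{i<n} x_i B^i`. -/
def ds (B n : ℕ) (x : ℕ → ℕ) : ℕ := ∑ i ∈ range n, x i * B ^ i

/-- repunit with gap `k`: `∑_{j<n} B^{k j}`. -/
def rep (B n k : ℕ) : ℕ := ∑ j ∈ range n, B ^ (k * j)

/-- `ds` is the digit string, bounded by `B^n` when all digits are `< B`. -/
theorem ds_lt (B n : ℕ) (x : ℕ → ℕ) (hx : ∀ i < n, x i < B) : ds B n x < B ^ n := by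
  unfold ds
  induction n with
  | zero => simp
  | succ n ih =>
    rw [sum_range_succ]
    have h1 := ih (fun i hi => hx i (by omega))
    have h2 := hx n (by omega)
    calc ∑ i ∈ range n, x i * B ^ i + x n * B ^ n < B ^ n + x n * B ^ n := by omega
      _ = (x n + 1) * B ^ n := by ring
      _ ≤ B * B ^ n := Nat.mul_le_mul_right _ h2
      _ = B ^ (n + 1) := by ring

theorem ds_succ' (B n : ℕ) (x : ℕ → ℕ) :
    ds B (n + 1) x = x 0 + B * ds B n (fun i => x (i + 1)) := by
  unfold ds
  rw [sum_range_succ', mul_sum]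
  simp only [pow_zero, mul_one]
  rw [add_comm]
  congr 1
  apply sum_congr rfl
  intro i _
  ring

theorem ds_succ (B n : ℕ) (x : ℕ → ℕ) :
    ds B (n + 1) x = ds B n x + x n * B ^ n := by
  unfold ds
  rw [sum_range_succ]

/-- uniqueness of digits. -/
theorem ds_inj (B n : ℕ) (x y : ℕ → ℕ) (hx : ∀ i < n, x i < B) (hy : ∀ i < n, y i < B) :
    ds B n x = ds B n y ↔ ∀ i < n, x i = y i := by
  constructor
  · intro h
    induction n generalizing x y with
    | zero => intro i hi; omega
    | succ n ih =>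
      rw [ds_succ', ds_succ'] at h
      have hx0 := hx 0 (by omega)
      have hy0 := hy 0 (by omega)
      have e0 : x 0 = y 0 := by
        have := congrArg (· % B) h
        simpa [Nat.add_mul_mod_self_left, Nat.mod_eq_of_lt hx0, Nat.mod_eq_of_lt hy0] using this
      have hB : 0 < B := by omega
      have e1 : ds B n (fun i => x (i + 1)) = ds B n (fun i => y (i + 1)) := by
        rw [e0] at h
        exact Nat.eq_of_mul_eq_mul_left hB (Nat.add_left_cancel h)
      have := ih (fun i => x (i + 1)) (fun i => y (i + 1)) (fun i hi => hx (i + 1) (by omega))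
        (fun i hi => hy (i + 1) (by omega)) e1
      intro i hi
      rcases i with _ | i
      · exact e0
      · exact this i (by omega)
  · intro h
    unfold ds
    apply sum_congr rfl
    intro i hi
    rw [h i (mem_range.1 hi)]

theorem ds_add (B n : ℕ) (x y : ℕ → ℕ) :
    ds B n x + ds B n y = ds B n (fun i => x i + y i) := by
  unfold ds
  rw [← sum_add_distrib]
  apply sum_congr rfl
  intro i _
  ring

theorem mul_ds (B n c : ℕ) (x : ℕ → ℕ) :
    c * ds B n x = ds B n (fun i => c * x i) := by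
  unfold ds
  rw [mul_sum]
  apply sum_congr rfl
  intro i _
  ring

theorem ds_one (B n : ℕ) : ds B n (fun _ => 1) = rep B n 1 := by
  unfold ds rep
  simp

theorem ds_const (B n c : ℕ) : ds B n (fun _ => c) = c * rep B n 1 := by
  rw [← ds_one, mul_ds]
  simp

/-- geometric sum: `rep B n k * (B^k - 1) + 1 = B^(k n)`. -/
theorem rep_eq (B n k : ℕ) (hB : 0 < B) : rep B n k * (B ^ k - 1) + 1 = B ^ (k * n) := by
  unfold rep
  induction n with
  | zero => simp
  | succ n ih =>
    rw [sum_range_succ, add_mul]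
    have h1 : 1 ≤ B ^ k := Nat.one_le_pow _ _ hB
    have : B ^ (k * n) * (B ^ k - 1) + B ^ (k * n) = B ^ (k * (n + 1)) := by
      rw [Nat.mul_sub, mul_one, Nat.mul_succ, pow_add]
      have : B ^ (k * n) ≤ B ^ (k * n) * B ^ k := Nat.le_mul_of_pos_right _ h1
      omega
    omega

/-- digit sum modulo `B-1`. -/
theorem ds_modEq (B n : ℕ) (hB : 2 ≤ B) (x : ℕ → ℕ) :
    ds B n x ≡ ∑ i ∈ range n, x i [MOD (B - 1)] := by
  unfold ds
  have hB1 : B ≡ 1 [MOD (B - 1)] := by
    have : B = 1 + (B - 1) := by omega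
    conv_lhs => rw [this]
    simp [Nat.ModEq]
  induction n with
  | zero => simp [Nat.ModEq]
  | succ n ih =>
    rw [sum_range_succ, sum_range_succ]
    apply Nat.ModEq.add ih
    have : x n * B ^ n ≡ x n * 1 ^ n [MOD (B - 1)] := Nat.ModEq.mul_left _ (hB1.pow n)
    simpa using this

/-- the index string `N = ∑_{i<n} i B^i` satisfies `N (B-1) + B * rep = n B^n`. -/
theorem ds_id (B n : ℕ) (hB : 1 ≤ B) :
    ds B n (fun i => i) * (B - 1) + B * rep B n 1 = n * B ^ n := by
  unfold ds rep
  induction n with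
  | zero => simp
  | succ n ih =>
    rw [sum_range_succ, sum_range_succ, add_mul, mul_add]
    beta_reduce at ih ⊢
    have h1 : n * B ^ n * (B - 1) + n * B ^ n = n * B ^ (n + 1) := by
      have : n * B ^ n * (B - 1) + n * B ^ n = n * B ^ n * ((B - 1) + 1) := by ring
      rw [this, Nat.sub_add_cancel hB]
      ring
    have h2 : B * B ^ (1 * n) = B ^ (n + 1) := by rw [one_mul]; ring
    have h3 : (n + 1) * B ^ (n + 1) = n * B ^ (n + 1) + B ^ (n + 1) := by ring
    rw [h2, h3]
    omega

end SFold
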