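import Crest.Agent.SFold.Dig

/-!
Row 323 (S0500), Part I: digit strings in base `2^b` and bitwise AND.
-/

set_option autoImplicit false

namespace SFold

open Finset

theorem land_add_mul (b x y X Y : ℕ) (hx : x < 2 ^ b) (hy : y < 2 ^ b) :
    (x + 2 ^ b * X) &&& (y + 2 ^ b * Y) = (x &&& y) + 2 ^ b * (X &&& Y) := by
  apply Nat.eq_of_testBit_eq
  intro i
  have hxy : x &&& y < 2 ^ b := lt_of_le_of_lt Nat.and_le_left hx
  rw [Nat.testBit_and, add_comm x, add_comm y, add_comm (x &&& y),
    Nat.testBit_two_pow_mul_add _ hx, Nat.testBit_two_pow_mul_add _ hy,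
    Nat.testBit_two_pow_mul_add _ hxy]
  split_ifs <;> simp [Nat.testBit_and]

theorem and_ds (b n : ℕ) (x y : ℕ → ℕ) (hx : ∀ i < n, x i < 2 ^ b) (hy : ∀ i < n, y i < 2 ^ b) :
    ds (2 ^ b) n x &&& ds (2 ^ b) n y = ds (2 ^ b) n (fun i => x i &&& y i) := by
  induction n generalizing x y with
  | zero => simp [ds]
  | succ n ih =>
    rw [ds_succ', ds_succ', ds_succ', land_add_mul b _ _ _ _ (hx 0 (by omega)) (hy 0 (by omega)),
      ih _ _ (fun i hi => hx (i + 1) (by omega)) (fun i hi => hy (i + 1) (by omega))]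

theorem ds_surj (B n X : ℕ) (hB : 0 < B) (hX : X < B ^ n) :
    ∃ x : ℕ → ℕ, (∀ i, x i < B) ∧ X = ds B n x := by
  induction n generalizing X with
  | zero =>
    refine ⟨fun _ => 0, fun _ => hB, ?_⟩
    simp [ds] at hX ⊢
    exact hX
  | succ n ih =>
    have h1 : X / B < B ^ n := by
      apply Nat.div_lt_of_lt_mul
      rw [mul_comm]
      simpa [pow_succ] using hX
    obtain ⟨x, hx, hX'⟩ := ih (X / B) h1
    refine ⟨fun i => if i = 0 then X % B else x (i - 1), ?_, ?_⟩
    · intro i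
      beta_reduce
      split_ifs
      · exact Nat.mod_lt _ hB
      · exact hx _
    · rw [ds_succ']
      simp only [if_true, Nat.add_eq_zero_iff, one_ne_zero, and_false, if_false,
        Nat.add_sub_cancel]
      rw [show (fun i => x i) = x from rfl, ← hX']
      exact (Nat.mod_add_div X B).symm

/-- The mask lemma: `X &&& (2^U-1)·J = X` iff `X` is a digit string of length `n` with all
digits `< 2^U`. -/
theorem mask_iff (b U n X : ℕ) (hU : U ≤ b) :
    (X &&& (2 ^ U - 1) * rep (2 ^ b) n 1 = X) ↔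
      ∃ x : ℕ → ℕ, (∀ i < n, x i < 2 ^ U) ∧ X = ds (2 ^ b) n x := by
  have hUb : 2 ^ U ≤ 2 ^ b := Nat.pow_le_pow_right (by norm_num) hU
  have hU1 : 1 ≤ 2 ^ U := Nat.one_le_two_pow
  rw [← ds_const]
  constructor
  · intro h
    have hlt : X < (2 ^ b) ^ n := by
      rw [← h]
      exact lt_of_le_of_lt Nat.and_le_right (ds_lt _ _ _ (fun i _ => by omega))
    obtain ⟨x, hx, hX⟩ := ds_surj (2 ^ b) n X (by positivity) hlt
    refine ⟨x, ?_, hX⟩
    rw [hX, and_ds b n _ _ (fun i _ => hx i) (fun i _ => by omega)] at h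
    have h2 := (ds_inj (2 ^ b) n _ _ (fun i _ => lt_of_le_of_lt Nat.and_le_left (hx i))
      (fun i _ => hx i)).1 h
    intro i hi
    have h3 := h2 i hi
    rw [Nat.and_two_pow_sub_one_eq_mod] at h3
    rw [← h3]
    exact Nat.mod_lt _ (by positivity)
  · rintro ⟨x, hx, rfl⟩
    rw [and_ds b n _ _ (fun i hi => lt_of_lt_of_le (hx i hi) hUb) (fun i _ => by omega)]
    apply (ds_inj (2 ^ b) n _ _ (fun i hi => lt_of_le_of_lt Nat.and_le_left
      (lt_of_lt_of_le (hx i hi) hUb)) (fun i hi => lt_of_lt_of_le (hx i hi) hUb)).2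
    intro i hi
    rw [Nat.and_two_pow_sub_one_eq_mod]
    exact Nat.mod_eq_of_lt (hx i hi)

/-- selecting the digits at positions `p j` (`j < n`) by a mask. -/
theorem select (b N n : ℕ) (c : ℕ → ℕ) (hc : ∀ e < N, c e < 2 ^ b) (p : ℕ → ℕ)
    (hp : ∀ j < n, p j < N) (hinj : ∀ i < n, ∀ j < n, p i = p j → i = j) :
    ds (2 ^ b) N c &&& (2 ^ b - 1) * ∑ j ∈ range n, (2 ^ b) ^ p j =
      ∑ j ∈ range n, c (p j) * (2 ^ b) ^ p j := by
  have hinj' : Set.InjOn p (range n : Set ℕ) := by
    intro i hi j hj h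
    exact hinj i (by simpa using hi) j (by simpa using hj) h
  have hsub : (range n).image p ⊆ range N := by
    intro e he
    obtain ⟨j, hj, rfl⟩ := mem_image.1 he
    exact mem_range.2 (hp j (mem_range.1 hj))
  have key : ∀ g : ℕ → ℕ, ∑ j ∈ range n, g (p j) * (2 ^ b) ^ p j =
      ds (2 ^ b) N (fun e => if e ∈ (range n).image p then g e else 0) := by
    intro g
    unfold ds
    rw [← sum_image (s := range n) (g := p) (f := fun e => g e * (2 ^ b) ^ e) hinj']
    rw [← sum_filter_add_sum_filter_not (range N) (fun e => e ∈ (range n).image p)]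
    have h2 : ∑ e ∈ (range N).filter (fun e => ¬ e ∈ (range n).image p),
        (if e ∈ (range n).image p then g e else 0) * (2 ^ b) ^ e = 0 := by
      apply sum_eq_zero
      intro e he
      rw [if_neg (mem_filter.1 he).2, zero_mul]
    rw [h2, add_zero]
    have h3 : (range N).filter (fun e => e ∈ (range n).image p) = (range n).image p := by
      ext e
      simp only [mem_filter]
      constructor
      · exact fun h => h.2
      · exact fun h => ⟨hsub h, h⟩
    rw [h3]
    apply sum_congr rfl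
    intro e he
    beta_reduce
    rw [if_pos he]
  have h1 : (2 ^ b - 1) * ∑ j ∈ range n, (2 ^ b) ^ p j =
      ds (2 ^ b) N (fun e => if e ∈ (range n).image p then 2 ^ b - 1 else 0) := by
    rw [← key (fun _ => 2 ^ b - 1), mul_sum]
  have hb1 : 1 ≤ 2 ^ b := Nat.one_le_two_pow
  rw [h1, key c, and_ds b N _ _ hc (fun e _ => by split_ifs <;> omega)]
  unfold ds
  apply sum_congr rfl
  intro e he
  congr 1
  beta_reduce
  split_ifs
  · rw [Nat.and_two_pow_sub_one_eq_mod]
    exact Nat.mod_eq_of_lt (hc e (mem_range.1 he))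
  · simp

/-- a double digit string with row length `k`. -/
theorem ds_double (B n k : ℕ) (f : ℕ → ℕ → ℕ) :
    ∑ j ∈ range n, ∑ i ∈ range k, f i j * B ^ (i + k * j) =
      ds B (k * n) (fun e => f (e % k) (e / k)) := by
  unfold ds
  induction n with
  | zero => simp
  | succ n ih =>
    rw [sum_range_succ, ih, Nat.mul_succ, sum_range_add]
    congr 1
    apply sum_congr rfl
    intro i hi
    have hi' := mem_range.1 hi
    have hk : 0 < k := by omega
    have h1 : (k * n + i) % k = i := by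
      rw [Nat.mul_add_mod, Nat.mod_eq_of_lt hi']
    have h2 : (k * n + i) / k = n := by
      rw [Nat.mul_add_div hk, Nat.div_eq_of_lt hi', add_zero]
    beta_reduce
    rw [h1, h2, add_comm i]

/-- The diagonal lemma. -/
theorem diag (b n k : ℕ) (hnk : n ≤ k) (f : ℕ → ℕ → ℕ)
    (hf : ∀ i < k, ∀ j < n, f i j < 2 ^ b) :
    (∑ j ∈ range n, ∑ i ∈ range k, f i j * (2 ^ b) ^ (i + k * j)) &&&
      (2 ^ b - 1) * rep (2 ^ b) n (k + 1) =
      ∑ j ∈ range n, f j j * (2 ^ b) ^ ((k + 1) * j) := by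
  rw [ds_double]
  unfold rep
  rcases Nat.eq_zero_or_pos k with hk | hk
  · subst hk
    have : n = 0 := by omega
    subst this
    simp
  have hpos : ∀ j < n, (k + 1) * j < k * n := by
    intro j hj
    have : (k + 1) * j = k * j + j := by ring
    have h2 : k * (j + 1) ≤ k * n := Nat.mul_le_mul_left _ hj
    have h3 : k * (j + 1) = k * j + k := by ring
    omega
  rw [select b (k * n) n (fun e => f (e % k) (e / k))
    (fun e he => hf _ (Nat.mod_lt _ hk) _ (Nat.div_lt_of_lt_mul he)) (fun j => (k + 1) * j) hpos]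
  · apply sum_congr rfl
    intro j hj
    have hj' := mem_range.1 hj
    have h1 : ((k + 1) * j) % k = j := by
      rw [add_mul, one_mul, Nat.mul_add_mod, Nat.mod_eq_of_lt (by omega)]
    have h2 : ((k + 1) * j) / k = j := by
      rw [add_mul, one_mul, Nat.mul_add_div hk, Nat.div_eq_of_lt (by omega), add_zero]
    rw [h1, h2]
  · intro i _ j _ h
    exact Nat.eq_of_mul_eq_mul_left (by omega) h

/-- Hadamard product: spreading. -/
theorem spread (b n : ℕ) (x : ℕ → ℕ) (hx : ∀ i < n, x i < 2 ^ b) (k : ℕ) (hk : n ≤ k) :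
    (ds (2 ^ b) n x * rep (2 ^ b) n k) &&& (2 ^ b - 1) * rep (2 ^ b) n (k + 1) =
      ∑ j ∈ range n, x j * (2 ^ b) ^ ((k + 1) * j) := by
  have h := diag b n k hk (fun i _ => if i < n then x i else 0) (by
    intro i _ j _
    split_ifs with h
    · exact hx i h
    · positivity)
  have h1 : ∑ j ∈ range n, ∑ i ∈ range k, (if i < n then x i else 0) * (2 ^ b) ^ (i + k * j) =
      ds (2 ^ b) n x * rep (2 ^ b) n k := by
    unfold ds rep
    rw [mul_sum]
    apply sum_congr rfl
    intro j _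
    rw [sum_mul]
    have : range n ⊆ range k := range_subset_range.2 hk
    rw [← sum_subset this]
    · apply sum_congr rfl
      intro i hi
      rw [if_pos (mem_range.1 hi), pow_add]
      ring
    · intro i _ hi
      rw [if_neg (by simpa using hi), zero_mul]
  rw [h1] at h
  rw [h]
  apply sum_congr rfl
  intro j hj
  rw [if_pos (mem_range.1 hj)]

/-- product of a plain digit string and a spread digit string, on the diagonal. -/
theorem spread_mul (b n : ℕ) (x y : ℕ → ℕ) (hxy : ∀ i < n, ∀ j < n, x i * y j < 2 ^ b)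
    (k : ℕ) (hk : n ≤ k) :
    (ds (2 ^ b) n x * ∑ j ∈ range n, y j * (2 ^ b) ^ (k * j)) &&&
      (2 ^ b - 1) * rep (2 ^ b) n (k + 1) =
      ∑ j ∈ range n, (x j * y j) * (2 ^ b) ^ ((k + 1) * j) := by
  have h := diag b n k hk (fun i j => if i < n then x i * y j else 0) (by
    intro i _ j hj
    split_ifs with h
    · exact hxy i h j hj
    · positivity)
  have h1 : ∑ j ∈ range n, ∑ i ∈ range k,
        (if i < n then x i * y j else 0) * (2 ^ b) ^ (i + k * j) =
      ds (2 ^ b) n x * ∑ j ∈ range n, y j * (2 ^ b) ^ (k * j) := by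
    unfold ds
    rw [mul_sum]
    apply sum_congr rfl
    intro j _
    rw [sum_mul]
    have : range n ⊆ range k := range_subset_range.2 hk
    rw [← sum_subset this]
    · apply sum_congr rfl
      intro i hi
      rw [if_pos (mem_range.1 hi), pow_add]
      ring
    · intro i _ hi
      rw [if_neg (by simpa using hi), zero_mul]
  rw [h1] at h
  rw [h]
  apply sum_congr rfl
  intro j hj
  rw [if_pos (mem_range.1 hj)]

/-- equality of spread strings. -/
theorem spread_inj (b n k : ℕ) (hk : 1 ≤ k) (x y : ℕ → ℕ) (hx : ∀ i < n, x i < 2 ^ b)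
    (hy : ∀ i < n, y i < 2 ^ b) :
    (∑ j ∈ range n, x j * (2 ^ b) ^ (k * j) = ∑ j ∈ range n, y j * (2 ^ b) ^ (k * j)) ↔
      ∀ i < n, x i = y i := by
  have hb : 2 ^ b ≤ (2 ^ b) ^ k := Nat.le_self_pow (by omega) _
  have h := ds_inj ((2 ^ b) ^ k) n x y (fun i hi => lt_of_lt_of_le (hx i hi) hb)
    (fun i hi => lt_of_lt_of_le (hy i hi) hb)
  unfold ds at h
  simp only [← pow_mul, mul_assoc] at h
  simpa only [← pow_mul, mul_assoc] using h

/-- Hadamard product of digit strings. -/
theorem hadamard (b U n : ℕ) (hU : 2 * U ≤ b) (x y z : ℕ → ℕ) (hx : ∀ i < n, x i < 2 ^ U)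
    (hy : ∀ i < n, y i < 2 ^ U) (hz : ∀ i < n, z i < 2 ^ U) :
    ((ds (2 ^ b) n x * ((ds (2 ^ b) n y * rep (2 ^ b) n n) &&&
        (2 ^ b - 1) * rep (2 ^ b) n (n + 1))) &&& (2 ^ b - 1) * rep (2 ^ b) n (n + 2) =
      (ds (2 ^ b) n z * rep (2 ^ b) n (n + 1)) &&& (2 ^ b - 1) * rep (2 ^ b) n (n + 2)) ↔
      ∀ i < n, x i * y i = z i := by
  have hUb : 2 ^ U ≤ 2 ^ b := Nat.pow_le_pow_right (by norm_num) (by omega)
  have hxy : ∀ i < n, ∀ j < n, x i * y j < 2 ^ b := by
    intro i hi j hj
    have h1 : x i * y j < 2 ^ U * 2 ^ U := Nat.mul_lt_mul'' (hx i hi) (hy j hj)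
    have h2 : 2 ^ U * 2 ^ U ≤ 2 ^ b := by
      rw [← pow_add]
      exact Nat.pow_le_pow_right (by norm_num) (by omega)
    omega
  rw [spread b n y (fun i hi => lt_of_lt_of_le (hy i hi) hUb) n le_rfl,
    spread_mul b n x y hxy (n + 1) (by omega),
    spread b n z (fun i hi => lt_of_lt_of_le (hz i hi) hUb) (n + 1) (by omega)]
  exact spread_inj b n (n + 2) (by omega) _ _ (fun i hi => hxy i hi i hi)
    (fun i hi => lt_of_lt_of_le (hz i hi) hUb)

end SFold
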