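import Crest.Agent.SFold.SFBin

/-!
Row 323 (S0500), Part I: elementary equations on digit strings (helper15).
-/

set_option autoImplicit false
set_option linter.all false

namespace Crest.Agent.SFD

open SFold Finset

/-- repunit by a formula -/
def repF (B n k : ℕ) : ℕ := (B ^ (k * n) - 1) / (B ^ k - 1)

theorem repF_eq (B n k : ℕ) (hB : 2 ≤ B) (hk : 1 ≤ k ∨ n = 0) : repF B n k = rep B n k := by
  unfold repF
  rcases hk with hk | hk
  · have h := rep_eq B n k (by omega)
    have h1 : B ^ (k * n) - 1 = rep B n k * (B ^ k - 1) := by omega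
    have h2 : 1 < B ^ k := Nat.one_lt_pow (by omega) (by omega)
    rw [h1, Nat.mul_div_cancel _ (by omega)]
  · subst hk
    simp [rep]

/-- the index string by a formula -/
def idF (B n : ℕ) : ℕ := (n * B ^ n - B * repF B n 1) / (B - 1)

theorem idF_eq (B n : ℕ) (hB : 2 ≤ B) : idF B n = ds B n (fun i => i) := by
  unfold idF
  rw [repF_eq B n 1 hB (Or.inl le_rfl)]
  have h := ds_id B n (by omega)
  have h1 : n * B ^ n - B * rep B n 1 = ds B n (fun i => i) * (B - 1) := by omega
  rw [h1, Nat.mul_div_cancel _ (by omega)]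

/-- an elementary equation on digit strings -/
def Eqn.Lift {V : Type} (Bb n : ℕ) (X : V → ℕ) : Eqn V → Prop
  | .const a c => X a = c * repF Bb n 1
  | .add a b c => X a + X b = X c
  | .mul a b c => (X a * ((X b * repF Bb n n) &&& (Bb - 1) * repF Bb n (n + 1))) &&&
      (Bb - 1) * repF Bb n (n + 2) =
        (X c * repF Bb n (n + 1)) &&& (Bb - 1) * repF Bb n (n + 2)

theorem ds_eq_const (B n c : ℕ) (x : ℕ → ℕ) (hx : ∀ i < n, x i < B) :
    ds B n x = c * rep B n 1 ↔ ∀ i < n, x i = c := by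
  rcases Nat.lt_or_ge c B with hc | hc
  · rw [← ds_const]
    exact ds_inj B n x (fun _ => c) hx (fun _ _ => hc)
  · rcases Nat.eq_zero_or_pos n with hn | hn
    · subst hn
      simp [ds, rep]
    · constructor
      · intro h
        exfalso
        have h1 := ds_lt B n x hx
        have hB : 0 < B := lt_of_le_of_lt (Nat.zero_le _) (hx 0 hn)
        have h2 : B ^ (n - 1) ≤ rep B n 1 := by
          unfold rep
          have h3 : B ^ (1 * (n - 1)) ≤ ∑ j ∈ range n, B ^ (1 * j) :=
            single_le_sum (f := fun j => B ^ (1 * j)) (fun _ _ => Nat.zero_le _)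
              (mem_range.2 (by omega))
          simpa using h3
        have h4 : B ^ n = B * B ^ (n - 1) := by
          rw [← pow_succ']
          congr 1
          omega
        have h5 : B * B ^ (n - 1) ≤ c * rep B n 1 := Nat.mul_le_mul hc h2
        omega
      · intro h
        have := hx 0 hn
        have := h 0 hn
        omega

theorem Eqn.lift_iff {V : Type} (b U n : ℕ) (hU : 1 ≤ U) (hb : 2 * U + 1 ≤ b) (x : V → ℕ → ℕ)
    (hx : ∀ v, ∀ i < n, x v i < 2 ^ U) (e : Eqn V) :
    e.Lift (2 ^ b) n (fun v => ds (2 ^ b) n (x v)) ↔ ∀ i < n, e.Holds (fun v => x v i) := by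
  have hB2 : 2 ≤ 2 ^ b := by
    calc 2 = 2 ^ 1 := rfl
      _ ≤ 2 ^ b := Nat.pow_le_pow_right (by norm_num) (by omega)
  have hUb : 2 ^ U * 2 ≤ 2 ^ b := by
    rw [← pow_succ]
    exact Nat.pow_le_pow_right (by norm_num) (by omega)
  cases e with
  | const a c =>
    simp only [Eqn.Lift, Eqn.Holds]
    rw [repF_eq _ _ _ hB2 (Or.inl le_rfl)]
    exact ds_eq_const _ _ _ _ (fun i hi => by have := hx a i hi; omega)
  | add a b' c =>
    simp only [Eqn.Lift, Eqn.Holds]
    rw [ds_add]
    apply ds_inj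
    · intro i hi
      have := hx a i hi
      have := hx b' i hi
      omega
    · intro i hi
      have := hx c i hi
      omega
  | mul a b' c =>
    simp only [Eqn.Lift, Eqn.Holds]
    have h0 : repF (2 ^ b) n n = rep (2 ^ b) n n :=
      repF_eq _ _ _ hB2 (by omega)
    rw [h0, repF_eq _ _ _ hB2 (Or.inl (by omega)), repF_eq _ _ _ hB2 (Or.inl (by omega))]
    exact hadamard b U n (by omega) (x a) (x b') (x c) (hx a) (hx b') (hx c)

variable {D : Type}

theorem SFF.repF (hexp : HExp) {f g h : (D → ℕ) → ℕ} (hf : SFF f) (hg : SFF g) (hh : SFF h) :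
    SFF (fun a => repF (f a) (g a) (h a)) :=
  ((hf.tpow hexp (hh.mul hg)).tsub (SFF.const 1)).tdiv ((hf.tpow hexp hh).tsub (SFF.const 1))

theorem SFF.idF (hexp : HExp) {f g : (D → ℕ) → ℕ} (hf : SFF f) (hg : SFF g) :
    SFF (fun a => idF (f a) (g a)) :=
  ((hg.mul (hf.tpow hexp hg)).tsub (hf.mul (SFF.repF hexp hf hg (SFF.const 1)))).tdiv
    (hf.tsub (SFF.const 1))

theorem SF.lift (hexp : HExp) {V : Type} (e : Eqn V) {Bb n : (D → ℕ) → ℕ} (hB : SFF Bb)
    (hn : SFF n) {X : V → (D → ℕ) → ℕ} (hX : ∀ v, SFF (X v)) :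
    SF {a | e.Lift (Bb a) (n a) (fun v => X v a)} := by
  have h1 : SFF (fun _ : D → ℕ => 1) := SFF.const 1
  cases e with
  | const a c =>
    exact SF.eq (hX a) ((SFF.const c).mul (SFF.repF hexp hB hn h1))
  | add a b c =>
    exact SF.eq ((hX a).add (hX b)) (hX c)
  | mul a b c =>
    have r0 := SFF.repF hexp hB hn hn
    have r1 := (hB.tsub h1).mul (SFF.repF hexp hB hn (hn.add (SFF.const 1)))
    have r1' := SFF.repF hexp hB hn (hn.add (SFF.const 1))
    have r2 := (hB.tsub h1).mul (SFF.repF hexp hB hn (hn.add (SFF.const 2)))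
    exact SF.eq (SFF.land hexp ((hX a).mul (SFF.land hexp ((hX b).mul r0) r1)) r2)
      (SFF.land hexp ((hX c).mul r1') r2)

end Crest.Agent.SFD
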