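import Crest.Agent.SFD.Closure
import Crest.Agent.SFold.Bin

/-!
Row 323 (S0500), Part I: subtraction, division, remainder, powers, binomials and bitwise AND
as single-fold functions (helper15).
-/

set_option autoImplicit false
set_option linter.all false

namespace Crest.Agent.SFD

variable {A C : Type}

theorem SFF.tsub {f g : (A → ℕ) → ℕ} (hf : SFF f) (hg : SFF g) : SFF (fun a => f a - g a) := by
  refine SFF.of_graph (P := fun a y => (f a < g a ∧ y = 0) ∨ (g a ≤ f a ∧ g a + y = f a)) ?_ ?_
  · refine SF.or ((SF.lt (SFF.rename some hf) (SFF.rename some hg)).and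
      (SF.eq (SFF.var none) (SFF.const 0)))
      ((SF.le (SFF.rename some hg) (SFF.rename some hf)).and
        (SF.eq ((SFF.rename some hg).add (SFF.var none)) (SFF.rename some hf))) ?_
    rintro v ⟨h1, _⟩ ⟨h2, _⟩
    have h1' := h1
    have h2' := h2
    omega
  · intro a y
    constructor
    · rintro (⟨h1, h2⟩ | ⟨h1, h2⟩) <;> omega
    · intro h
      rcases Nat.lt_or_ge (f a) (g a) with h1 | h1
      · left; omega
      · right; omega

theorem SFF.tdiv {f g : (A → ℕ) → ℕ} (hf : SFF f) (hg : SFF g) : SFF (fun a => f a / g a) := by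
  refine SFF.of_graph (P := fun a y => (g a = 0 ∧ y = 0) ∨
    (0 < g a ∧ g a * y ≤ f a ∧ f a < g a * y + g a)) ?_ ?_
  · refine SF.or ((SF.eq (SFF.rename some hg) (SFF.const 0)).and
      (SF.eq (SFF.var none) (SFF.const 0)))
      ((SF.lt (SFF.const 0) (SFF.rename some hg)).and
        ((SF.le ((SFF.rename some hg).mul (SFF.var none)) (SFF.rename some hf)).and
        (SF.lt (SFF.rename some hf) (((SFF.rename some hg).mul (SFF.var none)).add
          (SFF.rename some hg))))) ?_
    rintro v ⟨h1, _⟩ ⟨h2, _⟩
    have h1' := h1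
    have h2' := h2
    omega
  · intro a y
    constructor
    · rintro (⟨h1, h2⟩ | ⟨h1, h2, h3⟩)
      · rw [h1, h2, Nat.div_zero]
      · symm
        rw [Nat.div_eq_iff h1]
        constructor
        · nlinarith
        · have : g a * y = y * g a := Nat.mul_comm _ _
          omega
    · intro h
      rcases Nat.eq_zero_or_pos (g a) with h1 | h1
      · left
        refine ⟨h1, ?_⟩
        rw [h, h1, Nat.div_zero]
      · right
        subst h
        refine ⟨h1, Nat.mul_div_le _ _, ?_⟩
        exact Nat.lt_mul_div_succ _ h1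

theorem SFF.tmod {f g : (A → ℕ) → ℕ} (hf : SFF f) (hg : SFF g) : SFF (fun a => f a % g a) :=
  (hf.tsub (hg.mul (hf.tdiv hg))).congr fun a => by
    have := Nat.mod_add_div (f a) (g a)
    omega

/-- the hypothesis of Part I: exponentiation is single-fold. -/
def HExp : Prop := SF {v : Fin 3 → ℕ | v 2 = v 0 ^ v 1}

theorem SFF.tpow (hexp : HExp) {f g : (A → ℕ) → ℕ} (hf : SFF f) (hg : SFF g) :
    SFF (fun a => f a ^ g a) := by
  have h : SF {v : Option A → ℕ | v none = f (fun a => v (some a)) ^ g (fun a => v (some a))} := by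
    have h1 := SF.comp (C := Fin 3) (A := Option A) hexp
      (f := ![fun v => f (fun a => v (some a)), fun v => g (fun a => v (some a)), fun v => v none])
      (by
        intro c
        fin_cases c
        · exact SFF.rename some hf
        · exact SFF.rename some hg
        · exact SFF.var none)
    exact h1
  exact h

theorem SFF.choose (hexp : HExp) {f g : (A → ℕ) → ℕ} (hf : SFF f) (hg : SFF g) :
    SFF (fun a => (f a).choose (g a)) := by
  have h2 : SFF (fun a => 2 ^ f a) := SFF.tpow hexp (SFF.const 2) hf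
  refine ((((h2.add (SFF.const 2)).tpow hexp hf).tdiv ((h2.succ).tpow hexp hg)).tmod
    h2.succ).congr fun a => ?_
  exact SFold.choose_eq _ _

/-- disjoint supports -/
theorem SF.disj (hexp : HExp) {f g : (A → ℕ) → ℕ} (hf : SFF f) (hg : SFF g) :
    SF {a | f a &&& g a = 0} :=
  (SF.eq (((hf.add hg).choose hexp hf).tmod (SFF.const 2)) (SFF.const 1)).congr fun a => by
    simp only [Set.mem_ofPred_eq]
    exact (SFold.odd_choose_iff _ _).symm

/-- bitwise AND -/
theorem SFF.land (hexp : HExp) {f g : (A → ℕ) → ℕ} (hf : SFF f) (hg : SFF g) :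
    SFF (fun a => f a &&& g a) := by
  refine SFF.of_graph (P := fun a y => y ≤ f a ∧ y ≤ g a ∧ y &&& (f a - y) = 0 ∧
    y &&& (g a - y) = 0 ∧ (f a - y) &&& (g a - y) = 0) ?_ ?_
  · have hy : SFF (fun v : Option A → ℕ => v none) := SFF.var none
    have hf' : SFF (fun v : Option A → ℕ => f (fun a => v (some a))) := SFF.rename some hf
    have hg' : SFF (fun v : Option A → ℕ => g (fun a => v (some a))) := SFF.rename some hg
    exact (SF.le hy hf').and ((SF.le hy hg').and ((SF.disj hexp hy (hf'.tsub hy)).and
      ((SF.disj hexp hy (hg'.tsub hy)).and (SF.disj hexp (hf'.tsub hy) (hg'.tsub hy)))))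
  · intro a y
    exact (SFold.land_iff _ _ _).symm

end Crest.Agent.SFD
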